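import Mathlib

/-!
# P331: one-sample online rules on matroids against the almighty adversary
-/

open MeasureTheory
open scoped ENNReal NNReal

namespace Vale.Agent.P331

variable {E : Type} [Fintype E] [DecidableEq E]

open Classical in
/-- the offline optimum: the largest total value of an independent set -/
noncomputable def opt (M : Matroid E) (v : E → ℝ≥0) : ℝ≥0 :=
  (Finset.univ.filter (fun I : Finset E => M.Indep (I : Set E))).sup (fun I => ∑ e ∈ I, v e)

/-- An online rule with one sample per element. Before the arrivals it receives the samples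
`s : E → ℝ≥0` and a seed. When the element `e` arrives with the value `x`, it accepts or rejects
`e`, knowing the samples, the seed and the list `past` of the earlier arrivals with their values
(latest first). -/
structure Rule (E : Type) [Fintype E] [DecidableEq E] where
  /-- the seeds -/
  Seed : Type
  /-- their measurable structure -/
  mSeed : MeasurableSpace Seed
  /-- the law of the seed -/
  law : Measure Seed
  /-- it is a probability measure -/
  prob : IsProbabilityMeasure law
  /-- the decision -/
  accept : (s : E → ℝ≥0) → (r : Seed) → (past : List (E × ℝ≥0)) → (e : E) → (x : ℝ≥0) → Bool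
  /-- the decisions are measurable -/
  meas : ∀ (l : List E) (e : E), Measurable
    (fun x : (E → ℝ≥0) × (E → ℝ≥0) × Seed =>
      accept x.1 x.2.2 (l.map (fun f => (f, x.2.1 f))) e (x.2.1 e))

attribute [instance] Rule.mSeed Rule.prob

/-- the set accepted by the rule after the arrivals `l` (latest first), the samples being `s` and
the values `v` -/
def Rule.accepted (ρ : Rule E) (s v : E → ℝ≥0) (r : ρ.Seed) : List E → Finset E
  | [] => ∅
  | e :: l =>
    if ρ.accept s r (l.map (fun f => (f, v f))) e (v e) = true then
      insert e (ρ.accepted s v r l)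
    else ρ.accepted s v r l

/-- the rule always keeps its accepted set independent -/
def Rule.Feasible (ρ : Rule E) (M : Matroid E) : Prop :=
  ∀ (s v : E → ℝ≥0) (r : ρ.Seed) (l : List E), l.Nodup →
    M.Indep ((ρ.accepted s v r l : Finset E) : Set E)

/-- An almighty adversary: the arrival order (latest first) is a measurable function of the
samples, the values and the seed. -/
structure Adversary (ρ : Rule E) where
  /-- the order -/
  order : (E → ℝ≥0) × (E → ℝ≥0) × ρ.Seed → List E
  /-- no element arrives twice -/
  nodup : ∀ x, (order x).Nodup
  /-- every element arrives -/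
  all : ∀ x e, e ∈ order x
  /-- measurability -/
  meas : ∀ l : List E, MeasurableSet {x | order x = l}

/-- the expected total value accepted by the rule, for the laws `D` -/
noncomputable def Rule.value (ρ : Rule E) (D : E → Measure ℝ≥0) (π : Adversary ρ) : ℝ≥0∞ :=
  ∫⁻ x : (E → ℝ≥0) × (E → ℝ≥0) × ρ.Seed,
    ((∑ e ∈ ρ.accepted x.1 x.2.1 x.2.2 (π.order x), x.2.1 e : ℝ≥0) : ℝ≥0∞)
      ∂((Measure.pi D).prod ((Measure.pi D).prod ρ.law))

/-- the rule is `c`-competitive on the matroid `M` against the almighty adversary: for all laws
`D e` of the values with finite expected optimum -/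
def Rule.Competitive (ρ : Rule E) (M : Matroid E) (c : ℝ) : Prop :=
  ρ.Feasible M ∧ ∀ D : E → Measure ℝ≥0, (∀ e, IsProbabilityMeasure (D e)) →
    ∫⁻ v, (opt M v : ℝ≥0∞) ∂(Measure.pi D) ≠ ⊤ → ∀ π : Adversary ρ,
      ENNReal.ofReal c * ∫⁻ v, (opt M v : ℝ≥0∞) ∂(Measure.pi D) ≤ ρ.value D π

end Vale.Agent.P331
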