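import Vale.Agent.P331.Greedy

open MeasureTheory
open scoped ENNReal NNReal

namespace Vale.Agent.P331

variable {E : Type} [Fintype E] [DecidableEq E]

theorem DET1_le_wmax (M : Matroid E) (s : E → ℝ≥0) {f : E} (hf : M.Indep {f}) :
    s f ≤ wmax M s := by
  classical
  have h := Finset.le_sup (f := fun f => if M.Indep {f} then s f else 0) (Finset.mem_univ f)
  simp only [hf, if_true] at h
  unfold wmax
  convert h

theorem DET1_le_rk (M : Matroid E) {I X : Finset E} (hI : M.Indep (I : Set E)) (hX : I ⊆ X) :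
    I.card ≤ rk M X := by
  classical
  unfold rk
  refine Finset.le_sup (f := Finset.card) ?_
  rw [Finset.mem_filter, Finset.mem_powerset]
  exact ⟨hX, hI⟩

theorem DET1_le_of_notMem (M : Matroid E) (s v : E → ℝ≥0) {e : E} (he : M.Indep {e})
    (h : e ∉ cset M 0 s v) : v e ≤ wmax M s := by
  classical
  have h1 : ¬ cand M 0 s e (v e) := by
    intro hc
    exact h (by unfold cset; simp [hc])
  have h2 : ∃ f, M.Indep {f} ∧ ¬ key (s f) f < key (v e) e := by
    by_contra hcon
    push Not at hcon
    exact h1 (by unfold cand; rw [if_pos rfl]; exact ⟨he, hcon⟩)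
  obtain ⟨f, hf, hk⟩ := h2
  rw [key_lt] at hk
  push Not at hk
  exact hk.1.trans (DET1_le_wmax M s hf)

open Classical in
theorem DET1_elem (M : Matroid E) (s v : E → ℝ≥0) (K : ℕ) {e : E} (h : v e ≤ wmax M s) :
    v e ≤ wmax M s / 2 ^ K +
      2 * ∑ j ∈ Finset.Icc 1 K, wmax M s / 2 ^ j * (if e ∈ cset M j s v then 1 else 0) := by
  rcases le_or_gt (v e) (wmax M s / 2 ^ K) with h1 | h1
  · exact h1.trans le_self_add
  · have hK : wmax M s < v e * 2 ^ K := by
      rwa [div_lt_iff₀ (by positivity)] at h1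
    have hex : ∃ j, wmax M s < v e * 2 ^ j := ⟨K, hK⟩
    let j := Nat.find hex
    have hj : wmax M s < v e * 2 ^ j := Nat.find_spec hex
    have hjK : j ≤ K := Nat.find_le hK
    have hj0 : j ≠ 0 := by
      intro h0
      rw [h0, pow_zero, mul_one] at hj
      exact absurd hj (not_lt.2 h)
    have hj1 : ¬ wmax M s < v e * 2 ^ (j - 1) := Nat.find_min hex (by omega)
    have hv : v e ≤ 2 * (wmax M s / 2 ^ j) := by
      have h2 : v e ≤ wmax M s / 2 ^ (j - 1) := by
        rw [le_div_iff₀ (by positivity)]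
        exact not_lt.1 hj1
      refine h2.trans (le_of_eq ?_)
      obtain ⟨i, hi⟩ : ∃ i, j = i + 1 := ⟨j - 1, by omega⟩
      rw [hi, Nat.add_sub_cancel, pow_succ]
      field_simp
    have hmem : e ∈ cset M j s v := by
      unfold cset
      rw [Finset.mem_filter]
      refine ⟨Finset.mem_univ _, ?_⟩
      unfold cand
      rw [if_neg hj0]
      exact hj
    refine hv.trans ((mul_le_mul_right ?_ 2).trans le_add_self)
    have h3 := Finset.single_le_sum (s := Finset.Icc 1 K)
      (f := fun j => wmax M s / 2 ^ j * (if e ∈ cset M j s v then (1 : ℝ≥0) else 0))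
      (fun i _ => zero_le) (Finset.mem_Icc.2 ⟨by omega, hjK⟩ : j ∈ Finset.Icc 1 K)
    simp only [hmem, if_true, mul_one] at h3
    exact h3

/-- DET: the deterministic inequality. Take an optimal independent set `I`. Elements of `I` in
`cset M 0 s v` are in the first sum. An element `e` of `I` outside has `v e ≤ W := wmax M s`
(`e` is not a loop; some nonloop `f` has `¬ key (s f) f < key (v e) e`, so `v e ≤ s f ≤ W`);
either `v e ≤ W / 2 ^ K` (in total at most `r W / 2 ^ K ≤ W / 2`) or, for the least `j` with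
`W < v e * 2 ^ j` (`1 ≤ j ≤ K`), `v e ≤ 2 * (W / 2 ^ j)` and `e ∈ cset M j s v`; and
`(I ∩ cset M j s v).card ≤ rk M (cset M j s v)`. -/
theorem det_ineq (M : Matroid E) (s v : E → ℝ≥0) (r K : ℕ)
    (hr : ∀ I : Finset E, M.Indep (I : Set E) → I.card ≤ r) (hK : 2 * r ≤ 2 ^ K) :
    opt M v ≤ ∑ e ∈ cset M 0 s v, v e +
      2 * ∑ j ∈ Finset.Icc 1 K, wmax M s / 2 ^ j * rk M (cset M j s v) + wmax M s / 2 := by
  classical
  unfold opt
  refine Finset.sup_le fun I hI => ?_
  rw [Finset.mem_filter] at hI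
  have hI := hI.2
  have hsing : ∀ e ∈ I, M.Indep {e} := fun e he =>
    hI.subset (by simpa using he)
  set W := wmax M s with hW
  have hsplit : ∑ e ∈ I, v e = ∑ e ∈ I with e ∈ cset M 0 s v, v e +
      ∑ e ∈ I with e ∉ cset M 0 s v, v e :=
    (Finset.sum_filter_add_sum_filter_not I (fun e => e ∈ cset M 0 s v) v).symm
  have h0 : ∑ e ∈ I with e ∈ cset M 0 s v, v e ≤ ∑ e ∈ cset M 0 s v, v e := by
    refine Finset.sum_le_sum_of_subset ?_
    intro e he
    exact (Finset.mem_filter.1 he).2
  have h1 : ∑ e ∈ I with e ∉ cset M 0 s v, v e ≤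
      ∑ e ∈ I, (W / 2 ^ K +
        2 * ∑ j ∈ Finset.Icc 1 K, W / 2 ^ j * (if e ∈ cset M j s v then 1 else 0)) := by
    refine le_trans (Finset.sum_le_sum fun e he => ?_)
      (Finset.sum_le_sum_of_subset (Finset.filter_subset _ _))
    rw [Finset.mem_filter] at he
    exact DET1_elem M s v K (DET1_le_of_notMem M s v (hsing e he.1) he.2)
  have h2 : ∑ e ∈ I, (W / 2 ^ K +
        2 * ∑ j ∈ Finset.Icc 1 K, W / 2 ^ j * (if e ∈ cset M j s v then (1 : ℝ≥0) else 0)) ≤
      2 * ∑ j ∈ Finset.Icc 1 K, W / 2 ^ j * rk M (cset M j s v) + W / 2 := by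
    rw [Finset.sum_add_distrib, add_comm]
    refine add_le_add ?_ ?_
    · rw [← Finset.mul_sum, Finset.sum_comm]
      refine mul_le_mul_right (Finset.sum_le_sum fun j _ => ?_) 2
      rw [← Finset.mul_sum]
      refine mul_le_mul_right ?_ _
      rw [Finset.sum_ite, Finset.sum_const_zero, add_zero, Finset.sum_const, nsmul_eq_mul, mul_one]
      have := DET1_le_rk M (I := I.filter (fun e => e ∈ cset M j s v)) (X := cset M j s v)
        (hI.subset (by
          intro e he
          simp only [Finset.coe_filter, Set.mem_setOf_eq] at he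
          exact he.1))
        (fun e he => (Finset.mem_filter.1 he).2)
      exact_mod_cast this
    · rw [Finset.sum_const, nsmul_eq_mul]
      have hr1 : ((I.card : ℕ) : ℝ≥0) ≤ r := by exact_mod_cast hr I hI
      have hK1 : (2 : ℝ≥0) * r ≤ 2 ^ K := by exact_mod_cast hK
      rw [mul_div_assoc', div_le_div_iff₀ (by positivity) (by positivity)]
      calc (I.card : ℝ≥0) * W * 2 ≤ r * W * 2 := by gcongr
        _ = W * (2 * r) := by ring
        _ ≤ W * 2 ^ K := by gcongr
  rw [hsplit, add_assoc]
  exact add_le_add h0 (h1.trans h2)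

/-- DET: the largest sample is at most the optimum of the samples -/
theorem wmax_le_opt (M : Matroid E) (s : E → ℝ≥0) : wmax M s ≤ opt M s := by
  classical
  unfold wmax
  refine Finset.sup_le fun f _ => ?_
  by_cases hf : M.Indep {f}
  · rw [if_pos hf]
    unfold opt
    have h := Finset.le_sup (f := fun I : Finset E => ∑ e ∈ I, s e)
      (s := Finset.univ.filter (fun I : Finset E => M.Indep (I : Set E))) (b := {f})
      (by rw [Finset.mem_filter]; exact ⟨Finset.mem_univ _, by simpa using hf⟩)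
    simp only [Finset.sum_singleton] at h
    convert h
  · rw [if_neg hf]
    exact zero_le

end Vale.Agent.P331
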