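import Vale.Agent.P331.Ms

open MeasureTheory
open scoped ENNReal NNReal

namespace Vale.Agent.P331

variable {E : Type} [Fintype E] [DecidableEq E]

/-- exchange of the sample and the value of `e` -/
noncomputable def swp (e : E) (x : (E → ℝ≥0) × (E → ℝ≥0)) : (E → ℝ≥0) × (E → ℝ≥0) :=
  (Function.update x.1 e (x.2 e), Function.update x.2 e (x.1 e))

theorem swp_1_self (e : E) (x : (E → ℝ≥0) × (E → ℝ≥0)) : (swp e x).1 e = x.2 e := by
  simp [swp]
theorem swp_2_self (e : E) (x : (E → ℝ≥0) × (E → ℝ≥0)) : (swp e x).2 e = x.1 e := by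
  simp [swp]
theorem swp_1_ne {e f : E} (h : f ≠ e) (x : (E → ℝ≥0) × (E → ℝ≥0)) :
    (swp e x).1 f = x.1 f := by
  simp [swp, Function.update_of_ne h]
theorem swp_2_ne {e f : E} (h : f ≠ e) (x : (E → ℝ≥0) × (E → ℝ≥0)) :
    (swp e x).2 f = x.2 f := by
  simp [swp, Function.update_of_ne h]

theorem swp_mp (D : E → Measure ℝ≥0) [∀ e, IsProbabilityMeasure (D e)] (e : E) :
    MeasurePreserving (swp e) ((Measure.pi D).prod (Measure.pi D))
      ((Measure.pi D).prod (Measure.pi D)) := by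
  have hA := measurePreserving_arrowProdEquivProdArrow ℝ≥0 ℝ≥0 E D D
  have hg : MeasurePreserving
      (fun (z : E → ℝ≥0 × ℝ≥0) i => (if i = e then Prod.swap else id) (z i))
      (Measure.pi (fun i => (D i).prod (D i))) (Measure.pi (fun i => (D i).prod (D i))) := by
    apply measurePreserving_pi
    intro i
    by_cases h : i = e
    · rw [if_pos h]
      exact Measure.measurePreserving_swap
    · rw [if_neg h]
      exact MeasurePreserving.id _
  have h := hA.comp (hg.comp hA.symm)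
  convert h using 1
  funext x
  apply Prod.ext
  · funext i
    by_cases h : i = e
    · subst h
      simp [swp, MeasurableEquiv.arrowProdEquivProdArrow, Equiv.arrowProdEquivProdArrow]
    · simp [swp, MeasurableEquiv.arrowProdEquivProdArrow, Equiv.arrowProdEquivProdArrow, h]
  · funext i
    by_cases h : i = e
    · subst h
      simp [swp, MeasurableEquiv.arrowProdEquivProdArrow, Equiv.arrowProdEquivProdArrow]
    · simp [swp, MeasurableEquiv.arrowProdEquivProdArrow, Equiv.arrowProdEquivProdArrow, h]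

theorem key_ne {x y : ℝ≥0} {e f : E} (h : e ≠ f) : key x e ≠ key y f := by
  intro h'
  have := congrArg (fun z => (ofLex z).2) h'
  exact h (idx_inj this)

theorem key_lt_self {x y : ℝ≥0} {e : E} : key x e < key y e ↔ x < y := by
  rw [key_lt]; simp

theorem key_le_self {x y : ℝ≥0} {e : E} (h : x ≤ y) : key x e ≤ key y e := by
  rcases h.eq_or_lt with h | h
  · rw [h]
  · exact (key_lt_self.mpr h).le

theorem le_of_key_lt {x y : ℝ≥0} {e f : E} (h : key x e < key y f) : x ≤ y := by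
  rcases key_lt.mp h with h | h
  · exact h.le
  · exact h.1.le

def NN (M : Matroid E) (e : E) (x : (E → ℝ≥0) × (E → ℝ≥0)) : Prop :=
  M.Indep {e} ∧ ∀ f, M.Indep {f} → key (x.1 f) f < key (x.2 e) e

def TV (M : Matroid E) (e : E) (x : (E → ℝ≥0) × (E → ℝ≥0)) : Prop :=
  NN M e x ∧ ∀ f, f ≠ e → M.Indep {f} → key (x.2 f) f < key (x.2 e) e

theorem mem_cset_zero (M : Matroid E) (e : E) (x : (E → ℝ≥0) × (E → ℝ≥0)) :
    e ∈ cset M 0 x.1 x.2 ↔ NN M e x := by
  classical
  have h1 : e ∈ cset M 0 x.1 x.2 ↔ cand M 0 x.1 e (x.2 e) := by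
    unfold cset
    simp only [Finset.mem_filter, Finset.mem_univ, true_and]
  rw [h1]
  unfold cand NN
  rw [if_pos rfl]

theorem NN_meas (M : Matroid E) (e : E) : MeasurableSet {x | NN M e x} := by
  unfold NN
  have : {x : (E → ℝ≥0) × (E → ℝ≥0) | M.Indep {e} ∧ ∀ f, M.Indep {f} →
      key (x.1 f) f < key (x.2 e) e} = {_x | M.Indep {e}} ∩
      ⋂ f : E, ⋂ (_ : M.Indep {f}), {x | key (x.1 f) f < key (x.2 e) e} := by
    ext x
    simp
  rw [this]
  apply MeasurableSet.inter (MeasurableSet.const _)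
  apply MeasurableSet.iInter
  intro f
  apply MeasurableSet.iInter
  intro _
  apply measurableSet_key
  · exact (measurable_pi_apply f).comp measurable_fst
  · exact (measurable_pi_apply e).comp measurable_snd

theorem TV_meas (M : Matroid E) (e : E) : MeasurableSet {x | TV M e x} := by
  unfold TV
  have : {x : (E → ℝ≥0) × (E → ℝ≥0) | NN M e x ∧ ∀ f, f ≠ e → M.Indep {f} →
      key (x.2 f) f < key (x.2 e) e} = {x | NN M e x} ∩
      ⋂ f : E, ⋂ (_ : f ≠ e), ⋂ (_ : M.Indep {f}), {x | key (x.2 f) f < key (x.2 e) e} := by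
    ext x
    simp
  rw [this]
  apply MeasurableSet.inter (NN_meas M e)
  apply MeasurableSet.iInter
  intro f
  apply MeasurableSet.iInter
  intro _
  apply MeasurableSet.iInter
  intro _
  apply measurableSet_key
  · exact (measurable_pi_apply f).comp measurable_snd
  · exact (measurable_pi_apply e).comp measurable_snd

/-- at most one term of the sum is nonzero -/
theorem sum_unique_le {ι : Type} [Fintype ι] {P : ι → Prop} [DecidablePred P] {c : ι → ℝ≥0∞}
    {B : ℝ≥0∞} (hu : ∀ i j, P i → P j → i = j) (hP : ∀ i, P i → c i ≤ B) :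
    ∑ i, (if P i then c i else 0) ≤ B := by
  classical
  by_cases h : ∃ i, P i
  · obtain ⟨i, hi⟩ := h
    rw [Finset.sum_eq_single i]
    · rw [if_pos hi]; exact hP i hi
    · intro j _ hj
      rw [if_neg]
      intro hPj
      exact hj (hu j i hPj hi)
    · intro h; exact absurd (Finset.mem_univ i) h
  · push Not at h
    rw [Finset.sum_eq_zero]
    · exact zero_le
    · intro i _
      rw [if_neg (h i)]

open Classical in
/-- STEP 2 -/
theorem step2 (M : Matroid E) (x : (E → ℝ≥0) × (E → ℝ≥0)) :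
    ∑ e, (if NN M e (swp e x) then ((x.1 e : ℝ≥0) : ℝ≥0∞) else 0) ≤
      ∑ f, (if TV M f (swp f x) then ((x.1 f : ℝ≥0) : ℝ≥0∞) else 0) +
        ∑ f, (if TV M f x then ((x.2 f : ℝ≥0) : ℝ≥0∞) else 0) := by
  have hA : ∀ e, NN M e (swp e x) → M.Indep {e} ∧ x.2 e < x.1 e ∧
      ∀ f, f ≠ e → M.Indep {f} → key (x.1 f) f < key (x.1 e) e := by
    intro e he
    refine ⟨he.1, ?_, ?_⟩
    · have := he.2 e he.1
      rw [swp_1_self, swp_2_self, key_lt_self] at this
      exact this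
    · intro f hf hfi
      have := he.2 f hfi
      rwa [swp_1_ne hf, swp_2_self] at this
  apply sum_unique_le
  · intro i j hi hj
    by_contra hij
    have h1 := (hA i hi).2.2 j (Ne.symm hij) (hA j hj).1
    have h2 := (hA j hj).2.2 i hij (hA i hi).1
    exact lt_asymm h1 h2
  · intro e he
    obtain ⟨h1, h2, h3⟩ := hA e he
    by_cases h : ∀ g, g ≠ e → M.Indep {g} → key (x.2 g) g < key (x.1 e) e
    · have hT : TV M e (swp e x) := by
        refine ⟨he, ?_⟩
        intro f hf hfi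
        rw [swp_2_ne hf, swp_2_self]
        exact h f hf hfi
      refine le_trans ?_ (le_add_right (Finset.single_le_sum (f := fun f =>
        if TV M f (swp f x) then ((x.1 f : ℝ≥0) : ℝ≥0∞) else 0) (fun _ _ => zero_le)
        (Finset.mem_univ e)))
      simp only [if_pos hT, le_refl]
    · push Not at h
      obtain ⟨g₀, hg₀, hgi₀, hgk₀⟩ := h
      obtain ⟨g, hg, hmax⟩ := Finset.exists_max_image
        (Finset.univ.filter (fun g => g ≠ e ∧ M.Indep {g})) (fun g => key (x.2 g) g)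
        ⟨g₀, Finset.mem_filter.mpr ⟨Finset.mem_univ _, hg₀, hgi₀⟩⟩
      rw [Finset.mem_filter] at hg
      have hge := hg.2.1
      have hgi := hg.2.2
      have hk : key (x.1 e) e < key (x.2 g) g := by
        refine lt_of_le_of_ne (hgk₀.trans (hmax g₀ (Finset.mem_filter.mpr ⟨Finset.mem_univ _, hg₀, hgi₀⟩))) (key_ne (Ne.symm hge))
      have hT : TV M g x := by
        refine ⟨⟨hgi, ?_⟩, ?_⟩
        · intro f hf
          by_cases hfe : f = e
          · subst hfe; exact hk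
          · exact (h3 f hfe hf).trans hk
        · intro f hf hfi
          by_cases hfe : f = e
          · subst hfe; exact (key_lt_self.mpr h2).trans hk
          · exact lt_of_le_of_ne (hmax f (Finset.mem_filter.mpr ⟨Finset.mem_univ _, hfe, hfi⟩)) (key_ne hf)
      refine le_trans ?_ (le_add_left (Finset.single_le_sum (f := fun f =>
        if TV M f x then ((x.2 f : ℝ≥0) : ℝ≥0∞) else 0) (fun _ _ => zero_le)
        (Finset.mem_univ g)))
      simp only [if_pos hT]
      exact_mod_cast le_of_key_lt hk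

def HH (M : Matroid E) (f h : E) (x : (E → ℝ≥0) × (E → ℝ≥0)) : Prop :=
  M.Indep {h} ∧ h ≠ f ∧ ∀ g, g ≠ f → g ≠ h → M.Indep {g} →
    key (max (x.1 g) (x.2 g)) g < key (max (x.1 h) (x.2 h)) h

def UU (M : Matroid E) (f h : E) (x : (E → ℝ≥0) × (E → ℝ≥0)) : Prop :=
  TV M f x ∧ HH M f h x ∧ x.1 h < x.2 h

theorem UU_meas (M : Matroid E) (f h : E) : MeasurableSet {x | UU M f h x} := by
  unfold UU HH
  have : {x : (E → ℝ≥0) × (E → ℝ≥0) | TV M f x ∧ (M.Indep {h} ∧ h ≠ f ∧ ∀ g, g ≠ f → g ≠ h →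
      M.Indep {g} → key (max (x.1 g) (x.2 g)) g < key (max (x.1 h) (x.2 h)) h) ∧
      x.1 h < x.2 h} = {x | TV M f x} ∩ (({_x | M.Indep {h} ∧ h ≠ f} ∩
      ⋂ g : E, ⋂ (_ : g ≠ f), ⋂ (_ : g ≠ h), ⋂ (_ : M.Indep {g}),
        {x | key (max (x.1 g) (x.2 g)) g < key (max (x.1 h) (x.2 h)) h}) ∩
      {x | x.1 h < x.2 h}) := by
    ext x
    simp only [Set.mem_ofPred_eq, Set.mem_inter_iff, Set.mem_iInter]
    tauto
  have m1 : ∀ g : E, Measurable fun x : (E → ℝ≥0) × (E → ℝ≥0) => x.1 g := fun g =>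
    (measurable_pi_apply g).comp measurable_fst
  have m2 : ∀ g : E, Measurable fun x : (E → ℝ≥0) × (E → ℝ≥0) => x.2 g := fun g =>
    (measurable_pi_apply g).comp measurable_snd
  rw [this]
  apply MeasurableSet.inter (TV_meas M f)
  apply MeasurableSet.inter
  · apply MeasurableSet.inter (MeasurableSet.const _)
    apply MeasurableSet.iInter
    intro g
    apply MeasurableSet.iInter
    intro _
    apply MeasurableSet.iInter
    intro _
    apply MeasurableSet.iInter
    intro _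
    exact measurableSet_key ((m1 g).max (m2 g)) ((m1 h).max (m2 h)) _ _
  · exact measurableSet_lt (m1 h) (m2 h)

theorem step4a (M : Matroid E) {f : E} {x : (E → ℝ≥0) × (E → ℝ≥0)} (hT : TV M f x)
    (hc : cset M 0 x.1 x.2 ≠ {f}) : ∃ h, UU M f h x := by
  have hf : f ∈ cset M 0 x.1 x.2 := (mem_cset_zero M f x).mpr hT.1
  obtain ⟨g₀, hg₀, hgf⟩ : ∃ g ∈ cset M 0 x.1 x.2, g ≠ f := by
    by_contra hcon
    push Not at hcon
    apply hc
    ext g
    rw [Finset.mem_singleton]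
    exact ⟨fun hg => hcon g hg, fun hg => hg ▸ hf⟩
  rw [mem_cset_zero] at hg₀
  classical
  obtain ⟨h, hh, hmax⟩ := Finset.exists_max_image
    (Finset.univ.filter (fun g => g ≠ f ∧ M.Indep {g})) (fun g => key (max (x.1 g) (x.2 g)) g)
    ⟨g₀, Finset.mem_filter.mpr ⟨Finset.mem_univ _, hgf, hg₀.1⟩⟩
  rw [Finset.mem_filter] at hh
  refine ⟨h, hT, ⟨hh.2.2, hh.2.1, ?_⟩, ?_⟩
  · intro g hgf' hgh hgi
    exact lt_of_le_of_ne (hmax g (Finset.mem_filter.mpr ⟨Finset.mem_univ _, hgf', hgi⟩)) (key_ne hgh)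
  · by_contra hle
    rw [not_lt] at hle
    have h1 := hg₀.2 h hh.2.2
    have h2 : key (x.2 g₀) g₀ ≤ key (max (x.1 g₀) (x.2 g₀)) g₀ := key_le_self (le_max_right _ _)
    have h3 := hmax g₀ (Finset.mem_filter.mpr ⟨Finset.mem_univ _, hgf, hg₀.1⟩)
    rw [max_eq_left hle] at h3
    exact absurd (h1.trans_le (h2.trans h3)) (lt_irrefl _)

theorem step4b (M : Matroid E) {f h : E} {x : (E → ℝ≥0) × (E → ℝ≥0)}
    (hU : UU M f h (swp h x)) : cset M 0 x.1 x.2 = {f} ∧ HH M f h x := by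
  obtain ⟨hT, hH, hlt⟩ := hU
  have hhf : h ≠ f := hH.2.1
  have hfh : f ≠ h := Ne.symm hhf
  rw [swp_1_self, swp_2_self] at hlt
  have hHx : HH M f h x := by
    refine ⟨hH.1, hH.2.1, ?_⟩
    intro g hgf hgh hgi
    have := hH.2.2 g hgf hgh hgi
    rw [swp_1_self, swp_2_self, swp_1_ne hgh, swp_2_ne hgh, max_comm (x.2 h)] at this
    exact this
  refine ⟨?_, hHx⟩
  ext g
  rw [mem_cset_zero, Finset.mem_singleton]
  constructor
  · intro hg
    by_contra hgf
    have h1 := hg.2 h hH.1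
    by_cases hgh : g = h
    · subst hgh
      rw [key_lt_self] at h1
      exact lt_asymm h1 hlt
    · have h2 := hHx.2.2 g hgf hgh hg.1
      rw [max_eq_left hlt.le] at h2
      have h3 : key (x.2 g) g ≤ key (max (x.1 g) (x.2 g)) g := key_le_self (le_max_right _ _)
      exact absurd ((h1.trans_le h3).trans h2) (lt_irrefl _)
  · intro hg
    subst hg
    refine ⟨hT.1.1, ?_⟩
    intro g' hg'
    by_cases hgh : g' = h
    · subst hgh
      have := hT.2 g' hhf hg'
      rw [swp_2_self, swp_2_ne hfh] at this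
      exact this
    · have := hT.1.2 g' hg'
      rw [swp_1_ne hgh, swp_2_ne hfh] at this
      exact this

theorem meas_ite {P : (E → ℝ≥0) × (E → ℝ≥0) → Prop} [DecidablePred P]
    (hP : MeasurableSet {x | P x}) (f : E) :
    Measurable fun x : (E → ℝ≥0) × (E → ℝ≥0) =>
      if P x then ((x.2 f : ℝ≥0) : ℝ≥0∞) else 0 := by
  apply Measurable.ite hP
  · exact ((measurable_pi_apply f).comp measurable_snd).coe_nnreal_ennreal
  · exact measurable_const

open Classical in
/-- STEP 4 -/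
theorem step4 (M : Matroid E) (D : E → Measure ℝ≥0) [∀ e, IsProbabilityMeasure (D e)] (f : E) :
    ∫⁻ x, (if TV M f x then ((x.2 f : ℝ≥0) : ℝ≥0∞) else 0)
        ∂((Measure.pi D).prod (Measure.pi D)) ≤
      2 * ∫⁻ x, (if cset M 0 x.1 x.2 = {f} then ((x.2 f : ℝ≥0) : ℝ≥0∞) else 0)
        ∂((Measure.pi D).prod (Measure.pi D)) := by
  set μ := (Measure.pi D).prod (Measure.pi D) with hμ
  have h1 : ∀ x, (if TV M f x then ((x.2 f : ℝ≥0) : ℝ≥0∞) else 0) ≤
      ∑ h, (if UU M f h x then ((x.2 f : ℝ≥0) : ℝ≥0∞) else 0) +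
        (if cset M 0 x.1 x.2 = {f} then ((x.2 f : ℝ≥0) : ℝ≥0∞) else 0) := by
    intro x
    by_cases hT : TV M f x
    · rw [if_pos hT]
      by_cases hc : cset M 0 x.1 x.2 = {f}
      · rw [if_pos hc]; exact le_add_left le_rfl
      · obtain ⟨h, hh⟩ := step4a M hT hc
        refine le_add_right (le_trans ?_ (Finset.single_le_sum (f := fun h =>
          if UU M f h x then ((x.2 f : ℝ≥0) : ℝ≥0∞) else 0) (fun _ _ => zero_le)
          (Finset.mem_univ h)))
        simp only [if_pos hh, le_refl]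
    · rw [if_neg hT]; exact zero_le
  have h2 : ∀ h, ∫⁻ x, (if UU M f h x then ((x.2 f : ℝ≥0) : ℝ≥0∞) else 0) ∂μ =
      ∫⁻ x, (if UU M f h (swp h x) then (((swp h x).2 f : ℝ≥0) : ℝ≥0∞) else 0) ∂μ := by
    intro h
    exact ((swp_mp D h).lintegral_comp (meas_ite (UU_meas M f h) f)).symm
  have h3 : ∀ x, ∑ h, (if UU M f h (swp h x) then (((swp h x).2 f : ℝ≥0) : ℝ≥0∞) else 0) ≤
      (if cset M 0 x.1 x.2 = {f} then ((x.2 f : ℝ≥0) : ℝ≥0∞) else 0) := by
    intro x
    apply sum_unique_le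
    · intro i j hi hj
      by_contra hij
      have ki := (step4b M hi).2
      have kj := (step4b M hj).2
      have e1 := ki.2.2 j kj.2.1 (Ne.symm hij) kj.1
      have e2 := kj.2.2 i ki.2.1 hij ki.1
      exact lt_asymm e1 e2
    · intro h hh
      rw [if_pos (step4b M hh).1, swp_2_ne (Ne.symm hh.2.1.2.1)]
  calc ∫⁻ x, (if TV M f x then ((x.2 f : ℝ≥0) : ℝ≥0∞) else 0) ∂μ
      ≤ ∫⁻ x, (∑ h, (if UU M f h x then ((x.2 f : ℝ≥0) : ℝ≥0∞) else 0) +
        (if cset M 0 x.1 x.2 = {f} then ((x.2 f : ℝ≥0) : ℝ≥0∞) else 0)) ∂μ := lintegral_mono h1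
    _ = ∫⁻ x, ∑ h, (if UU M f h x then ((x.2 f : ℝ≥0) : ℝ≥0∞) else 0) ∂μ +
        ∫⁻ x, (if cset M 0 x.1 x.2 = {f} then ((x.2 f : ℝ≥0) : ℝ≥0∞) else 0) ∂μ := by
        rw [lintegral_add_left]
        exact Finset.measurable_sum _ (fun h _ => meas_ite (UU_meas M f h) f)
    _ = ∫⁻ x, ∑ h, (if UU M f h (swp h x) then (((swp h x).2 f : ℝ≥0) : ℝ≥0∞) else 0) ∂μ +
        ∫⁻ x, (if cset M 0 x.1 x.2 = {f} then ((x.2 f : ℝ≥0) : ℝ≥0∞) else 0) ∂μ := by
        congr 1
        have mU : ∀ h : E, Measurable fun x : (E → ℝ≥0) × (E → ℝ≥0) =>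
            if UU M f h (swp h x) then (((swp h x).2 f : ℝ≥0) : ℝ≥0∞) else 0 := fun h =>
          (meas_ite (UU_meas M f h) f).comp (swp_mp D h).measurable
        rw [lintegral_finsetSum _ (fun h _ => meas_ite (UU_meas M f h) f),
          lintegral_finsetSum _ (fun h _ => mU h)]
        exact Finset.sum_congr rfl (fun h _ => h2 h)
    _ ≤ ∫⁻ x, (if cset M 0 x.1 x.2 = {f} then ((x.2 f : ℝ≥0) : ℝ≥0∞) else 0) ∂μ +
        ∫⁻ x, (if cset M 0 x.1 x.2 = {f} then ((x.2 f : ℝ≥0) : ℝ≥0∞) else 0) ∂μ := by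
        gcongr with x
        exact h3 x
    _ = _ := by rw [two_mul]

open Classical in
/-- TOP: the candidates of level `0` are worth at most four times the value of the event that
there is exactly one -/
theorem top_ineq (M : Matroid E) (D : E → Measure ℝ≥0) [∀ e, IsProbabilityMeasure (D e)] :
    ∫⁻ x, ((∑ e ∈ cset M 0 x.1 x.2, x.2 e : ℝ≥0) : ℝ≥0∞) ∂((Measure.pi D).prod (Measure.pi D)) ≤
      4 * ∫⁻ x, ((∑ e, (if cset M 0 x.1 x.2 = {e} then x.2 e else 0) : ℝ≥0) : ℝ≥0∞)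
        ∂((Measure.pi D).prod (Measure.pi D)) := by
  set μ := (Measure.pi D).prod (Measure.pi D) with hμ
  have e1 : ∀ x : (E → ℝ≥0) × (E → ℝ≥0), ((∑ e ∈ cset M 0 x.1 x.2, x.2 e : ℝ≥0) : ℝ≥0∞) =
      ∑ e, (if NN M e x then ((x.2 e : ℝ≥0) : ℝ≥0∞) else 0) := by
    intro x
    rw [ENNReal.ofNNReal_finsetSum, ← Finset.sum_filter]
    apply Finset.sum_congr _ (fun _ _ => rfl)
    ext e
    rw [mem_cset_zero]
    simp
  have e2 : ∀ x : (E → ℝ≥0) × (E → ℝ≥0),
      ((∑ e, (if cset M 0 x.1 x.2 = {e} then x.2 e else 0) : ℝ≥0) : ℝ≥0∞) =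
      ∑ e, (if cset M 0 x.1 x.2 = {e} then ((x.2 e : ℝ≥0) : ℝ≥0∞) else 0) := by
    intro x
    rw [ENNReal.ofNNReal_finsetSum]
    apply Finset.sum_congr rfl
    intro e _
    split_ifs <;> simp
  have mcs : ∀ e, MeasurableSet {x : (E → ℝ≥0) × (E → ℝ≥0) | cset M 0 x.1 x.2 = {e}} :=
    fun e => measurableSet_cset M 0 {e}
  have mN := fun e => meas_ite (NN_meas M e) e
  have mT := fun e => meas_ite (TV_meas M e) e
  calc ∫⁻ x, ((∑ e ∈ cset M 0 x.1 x.2, x.2 e : ℝ≥0) : ℝ≥0∞) ∂μ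
      = ∑ e, ∫⁻ x, (if NN M e x then ((x.2 e : ℝ≥0) : ℝ≥0∞) else 0) ∂μ := by
        rw [lintegral_congr e1, lintegral_finsetSum _ (fun e _ => mN e)]
    _ = ∑ e, ∫⁻ x, (if NN M e (swp e x) then (((swp e x).2 e : ℝ≥0) : ℝ≥0∞) else 0) ∂μ := by
        apply Finset.sum_congr rfl
        intro e _
        exact ((swp_mp D e).lintegral_comp (mN e)).symm
    _ = ∫⁻ x, ∑ e, (if NN M e (swp e x) then ((x.1 e : ℝ≥0) : ℝ≥0∞) else 0) ∂μ := by
        rw [lintegral_finsetSum]
        · simp only [swp_2_self]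
        · intro e _
          have := (mN e).comp (swp_mp D e).measurable
          simp only [Function.comp_def, swp_2_self] at this
          exact this
    _ ≤ ∫⁻ x, (∑ f, (if TV M f (swp f x) then ((x.1 f : ℝ≥0) : ℝ≥0∞) else 0) +
        ∑ f, (if TV M f x then ((x.2 f : ℝ≥0) : ℝ≥0∞) else 0)) ∂μ :=
        lintegral_mono (fun x => step2 M x)
    _ = ∑ f, ∫⁻ x, (if TV M f (swp f x) then (((swp f x).2 f : ℝ≥0) : ℝ≥0∞) else 0) ∂μ +
        ∑ f, ∫⁻ x, (if TV M f x then ((x.2 f : ℝ≥0) : ℝ≥0∞) else 0) ∂μ := by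
        rw [lintegral_add_right _ (Finset.measurable_sum _ (fun f _ => mT f)),
          lintegral_finsetSum _ (fun f _ => mT f), lintegral_finsetSum]
        · simp only [swp_2_self]
        · intro e _
          have := (mT e).comp (swp_mp D e).measurable
          simp only [Function.comp_def, swp_2_self] at this
          exact this
    _ = 2 * ∑ f, ∫⁻ x, (if TV M f x then ((x.2 f : ℝ≥0) : ℝ≥0∞) else 0) ∂μ := by
        rw [two_mul]
        congr 1
        apply Finset.sum_congr rfl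
        intro e _
        exact (swp_mp D e).lintegral_comp (mT e)
    _ ≤ 2 * ∑ f, 2 * ∫⁻ x, (if cset M 0 x.1 x.2 = {f} then ((x.2 f : ℝ≥0) : ℝ≥0∞) else 0) ∂μ := by
        gcongr with f _
        exact step4 M D f
    _ = 4 * ∫⁻ x, ((∑ e, (if cset M 0 x.1 x.2 = {e} then x.2 e else 0) : ℝ≥0) : ℝ≥0∞) ∂μ := by
        rw [lintegral_congr e2, lintegral_finsetSum _ (fun e _ => meas_ite (mcs e) e),
          ← Finset.mul_sum, ← mul_assoc]
        norm_num

end Vale.Agent.P331
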