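import Vale.Agent.P331.G1
import Vale.Agent.P331.Det
import Vale.Agent.P331.Top

open MeasureTheory
open scoped ENNReal NNReal

namespace Vale.Agent.P331

variable {E : Type} [Fintype E] [DecidableEq E]

open Classical in
/-- the greedy rule with a uniformly random level `0, …, K` -/
noncomputable def grule (M : Matroid E) (K : ℕ) : Rule E where
  Seed := Fin (K + 1)
  mSeed := ⊤
  law := @PMF.toMeasure _ ⊤ (PMF.uniformOfFintype (Fin (K + 1)))
  prob := @PMF.toMeasure.isProbabilityMeasure _ ⊤ (PMF.uniformOfFintype (Fin (K + 1)))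
  accept := fun s r past e x =>
    decide (cand M (r : ℕ) s e x ∧ M.Indep ((insert e (grun M (r : ℕ) s past) : Finset E) : Set E))
  meas := fun l e => measurable_accept M K l e

theorem grule_accepted (M : Matroid E) (K : ℕ) (s v : E → ℝ≥0) (r : (grule M K).Seed)
    (l : List E) : (grule M K).accepted s v r l =
      grun M (Fin.val (n := K + 1) r) s (l.map (fun f => (f, v f))) := by
  classical
  induction l with
  | nil => rfl
  | cons e l ih =>
    have h1 : (grule M K).accepted s v r (e :: l) =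
      if (grule M K).accept s r (l.map (fun f => (f, v f))) e (v e) = true then
        insert e ((grule M K).accepted s v r l)
      else (grule M K).accepted s v r l := rfl
    rw [h1, List.map_cons, grun, ih]
    simp only [grule, decide_eq_true_eq]

theorem grule_feasible (M : Matroid E) (K : ℕ) : (grule M K).Feasible M := by
  intro s v r l _
  rw [grule_accepted]
  exact grun_indep M _ s _

open Classical in
/-- the lower bound of the accepted value at level `j` -/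
noncomputable def low (M : Matroid E) (j : ℕ) (x : (E → ℝ≥0) × (E → ℝ≥0)) : ℝ≥0 :=
  if j = 0 then ∑ e, (if cset M 0 x.1 x.2 = {e} then x.2 e else 0)
  else wmax M x.1 / 2 ^ j * rk M (cset M j x.1 x.2)

theorem low_meas (M : Matroid E) (j : ℕ) : Measurable (low M j) := by
  classical
  unfold low
  by_cases h : j = 0
  · simp only [if_pos h]
    exact Finset.measurable_sum _ (fun e _ => measurable_single M e)
  · simp only [if_neg h]
    exact measurable_low M j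

theorem low_le (M : Matroid E) (j : ℕ) (s v : E → ℝ≥0) (l : List E) (hl : ∀ e, e ∈ l) :
    low M j (s, v) ≤ ∑ e ∈ grun M j s (l.map (fun f => (f, v f))), v e := by
  classical
  unfold low
  by_cases h : j = 0
  · subst h
    rw [if_pos rfl]
    exact grun_val_zero M s v l hl
  · rw [if_neg h]
    exact grun_val M j (Nat.one_le_iff_ne_zero.mpr h) s v l hl

theorem seed_law (K : ℕ) (j : Fin (K + 1)) :
    (@PMF.toMeasure _ ⊤ (PMF.uniformOfFintype (Fin (K + 1)))) {j} = ((K : ℝ≥0∞) + 1)⁻¹ := by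
  letI : MeasurableSpace (Fin (K + 1)) := ⊤
  rw [PMF.toMeasure_apply_singleton _ _ MeasurableSpace.measurableSet_top,
    PMF.uniformOfFintype_apply]
  simp

theorem seed_int (K : ℕ) (j : Fin (K + 1)) (c : ℝ≥0∞) :
    @lintegral _ ⊤ (@PMF.toMeasure _ ⊤ (PMF.uniformOfFintype (Fin (K + 1))))
      (fun k => if k = j then c else 0) = c * ((K : ℝ≥0∞) + 1)⁻¹ := by
  letI : MeasurableSpace (Fin (K + 1)) := ⊤
  rw [← seed_law K j]
  have : (fun k : Fin (K + 1) => if k = j then c else 0) = Set.indicator {j} (fun _ => c) := by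
    funext k
    by_cases h : k = j
    · simp [h]
    · simp [h]
  rw [this]
  exact lintegral_indicator_const MeasurableSpace.measurableSet_top c

/-- the value of the greedy rule -/
theorem value_ge (M : Matroid E) (K : ℕ) (D : E → Measure ℝ≥0) [∀ e, IsProbabilityMeasure (D e)]
    (π : Adversary (grule M K)) :
    (∑ j : Fin (K + 1), ∫⁻ x, (low M j x : ℝ≥0∞) ∂((Measure.pi D).prod (Measure.pi D))) *
      ((K : ℝ≥0∞) + 1)⁻¹ ≤ (grule M K).value D π := by
  classical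
  letI : MeasurableSpace (Fin (K + 1)) := ⊤
  set μ := Measure.pi D with hμ
  set ν : Measure (Fin (K + 1)) := (PMF.uniformOfFintype (Fin (K + 1))).toMeasure with hν
  have h1 : ∫⁻ x : (E → ℝ≥0) × (E → ℝ≥0) × Fin (K + 1),
      (low M (x.2.2 : ℕ) (x.1, x.2.1) : ℝ≥0∞) ∂(μ.prod (μ.prod ν)) ≤ (grule M K).value D π := by
    have h0 : ∀ x : (E → ℝ≥0) × (E → ℝ≥0) × (grule M K).Seed,
        (low M (Fin.val (n := K + 1) x.2.2) (x.1, x.2.1) : ℝ≥0∞) ≤
        ((∑ e ∈ (grule M K).accepted x.1 x.2.1 x.2.2 (π.order x), x.2.1 e : ℝ≥0) : ℝ≥0∞) := by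
      intro x
      rw [ENNReal.coe_le_coe, grule_accepted]
      exact low_le M _ _ _ _ (π.all x)
    exact lintegral_mono h0
  have mt : ∀ j : Fin (K + 1), Measurable fun x : (E → ℝ≥0) × (E → ℝ≥0) × Fin (K + 1) =>
      if x.2.2 = j then (low M (j : ℕ) (x.1, x.2.1) : ℝ≥0∞) else 0 := by
    intro j
    apply Measurable.ite
    · have : Measurable fun x : (E → ℝ≥0) × (E → ℝ≥0) × Fin (K + 1) => x.2.2 :=
        measurable_snd.comp measurable_snd
      exact this (MeasurableSpace.measurableSet_top (s := {j}))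
    · exact ((low_meas M j).comp
        (measurable_fst.prodMk (measurable_fst.comp measurable_snd))).coe_nnreal_ennreal
    · exact measurable_const
  have h3 : ∀ j : Fin (K + 1), ∫⁻ x : (E → ℝ≥0) × (E → ℝ≥0) × Fin (K + 1),
      (if x.2.2 = j then (low M (j : ℕ) (x.1, x.2.1) : ℝ≥0∞) else 0) ∂(μ.prod (μ.prod ν)) =
      (∫⁻ x, (low M j x : ℝ≥0∞) ∂(μ.prod μ)) * ((K : ℝ≥0∞) + 1)⁻¹ := by
    intro j
    have ml : Measurable fun x : (E → ℝ≥0) × (E → ℝ≥0) => (low M (j : ℕ) x : ℝ≥0∞) :=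
      (low_meas M j).coe_nnreal_ennreal
    rw [lintegral_prod _ (mt j).aemeasurable, lintegral_prod _ ml.aemeasurable,
      ← lintegral_mul_const _ ml.lintegral_prod_right']
    apply lintegral_congr
    intro s
    have m2 : Measurable fun y : (E → ℝ≥0) × Fin (K + 1) =>
        if y.2 = j then (low M (j : ℕ) (s, y.1) : ℝ≥0∞) else 0 :=
      (mt j).comp (measurable_const.prodMk measurable_id)
    have m3 : Measurable fun v : E → ℝ≥0 => (low M (j : ℕ) (s, v) : ℝ≥0∞) :=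
      ml.comp (measurable_const.prodMk measurable_id)
    rw [lintegral_prod _ m2.aemeasurable, ← lintegral_mul_const _ m3]
    apply lintegral_congr
    intro v
    exact seed_int K j (low M (j : ℕ) (s, v) : ℝ≥0∞)
  refine le_trans (le_of_eq ?_) h1
  rw [Finset.sum_mul]
  simp_rw [← h3]
  rw [← lintegral_finsetSum _ (fun j _ => mt j)]
  apply lintegral_congr
  intro x
  rw [Finset.sum_eq_single x.2.2]
  · rw [if_pos rfl]
  · intro j _ hj
    rw [if_neg (Ne.symm hj)]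
  · intro h; exact absurd (Finset.mem_univ _) h

theorem measurable_opt (M : Matroid E) : Measurable (opt M : (E → ℝ≥0) → ℝ≥0) := by
  classical
  have h : ∀ A : Finset (Finset E), Measurable (fun v : E → ℝ≥0 => A.sup (fun I => ∑ e ∈ I, v e)) := by
    intro A
    induction A using Finset.induction_on with
    | empty =>
      simp only [Finset.sup_empty]
      exact measurable_const
    | insert a A _ ih =>
      simp only [Finset.sup_insert]
      exact (Finset.measurable_sum _ (fun e _ => measurable_pi_apply e)).sup ih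
  exact h _

theorem fin_int (M : Matroid E) (K r : ℕ)
    (hr : ∀ I : Finset E, M.Indep (I : Set E) → I.card ≤ r) (hK : 2 * r ≤ 2 ^ K)
    (D : E → Measure ℝ≥0) [∀ e, IsProbabilityMeasure (D e)]
    (hfin : ∫⁻ v, (opt M v : ℝ≥0∞) ∂(Measure.pi D) ≠ ⊤) :
    ∫⁻ v, (opt M v : ℝ≥0∞) ∂(Measure.pi D) ≤ 8 * ∑ j : Fin (K + 1),
      ∫⁻ x, (low M j x : ℝ≥0∞) ∂((Measure.pi D).prod (Measure.pi D)) := by
  classical
  set μ := Measure.pi D with hμ
  set EO := ∫⁻ v, (opt M v : ℝ≥0∞) ∂μ with hEO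
  set S := ∑ j : Fin (K + 1), ∫⁻ x, (low M j x : ℝ≥0∞) ∂(μ.prod μ) with hS
  have mo : Measurable fun v : E → ℝ≥0 => (opt M v : ℝ≥0∞) := (measurable_opt M).coe_nnreal_ennreal
  have a2 : ∫⁻ x : (E → ℝ≥0) × (E → ℝ≥0), (opt M x.2 : ℝ≥0∞) ∂(μ.prod μ) = EO :=
    (measurePreserving_snd (μ := μ) (ν := μ)).lintegral_comp mo
  have a1 : ∫⁻ x : (E → ℝ≥0) × (E → ℝ≥0), (opt M x.1 : ℝ≥0∞) ∂(μ.prod μ) = EO :=
    (measurePreserving_fst (μ := μ) (ν := μ)).lintegral_comp mo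
  have b1 : ∫⁻ x : (E → ℝ≥0) × (E → ℝ≥0), (wmax M x.1 : ℝ≥0∞) ∂(μ.prod μ) ≤ EO := by
    rw [← a1]
    exact lintegral_mono (fun x => ENNReal.coe_le_coe.mpr (wmax_le_opt M x.1))
  have c1 : ∀ x : (E → ℝ≥0) × (E → ℝ≥0), (opt M x.2 : ℝ≥0∞) ≤
      ((∑ e ∈ cset M 0 x.1 x.2, x.2 e : ℝ≥0) : ℝ≥0∞) +
        (∑ j ∈ Finset.Icc 1 K, 2 * (low M j x : ℝ≥0∞) + (wmax M x.1 : ℝ≥0∞) * 2⁻¹) := by
    intro x
    have h := det_ineq M x.1 x.2 r K hr hK
    have h' : opt M x.2 ≤ (∑ e ∈ cset M 0 x.1 x.2, x.2 e) +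
        (∑ j ∈ Finset.Icc 1 K, 2 * low M j x + wmax M x.1 * 2⁻¹) := by
      refine h.trans (le_of_eq ?_)
      rw [add_assoc, Finset.mul_sum, div_eq_mul_inv (wmax M x.1) 2]
      congr 2
      apply Finset.sum_congr rfl
      intro j hj
      rw [Finset.mem_Icc] at hj
      rw [low, if_neg (by omega)]
    have h'' := ENNReal.coe_le_coe.mpr h'
    push_cast at h''
    rw [ENNReal.ofNNReal_finsetSum]
    exact h''
  have ml : ∀ j, Measurable fun x : (E → ℝ≥0) × (E → ℝ≥0) => (low M j x : ℝ≥0∞) :=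
    fun j => (low_meas M j).coe_nnreal_ennreal
  have mw : Measurable fun x : (E → ℝ≥0) × (E → ℝ≥0) => (wmax M x.1 : ℝ≥0∞) * 2⁻¹ :=
    (((measurable_wmax M).comp measurable_fst).coe_nnreal_ennreal).mul_const _
  have e0 : ∫⁻ x : (E → ℝ≥0) × (E → ℝ≥0),
      ((∑ e, (if cset M 0 x.1 x.2 = {e} then x.2 e else 0) : ℝ≥0) : ℝ≥0∞) ∂(μ.prod μ) =
      ∫⁻ x, (low M 0 x : ℝ≥0∞) ∂(μ.prod μ) := by
    apply lintegral_congr
    intro x
    rw [low, if_pos rfl]
  have d1 : EO ≤ 4 * ∫⁻ x, (low M 0 x : ℝ≥0∞) ∂(μ.prod μ) +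
      (∑ j ∈ Finset.Icc 1 K, 2 * ∫⁻ x, (low M j x : ℝ≥0∞) ∂(μ.prod μ) + EO * 2⁻¹) := by
    calc EO = ∫⁻ x : (E → ℝ≥0) × (E → ℝ≥0), (opt M x.2 : ℝ≥0∞) ∂(μ.prod μ) := a2.symm
      _ ≤ ∫⁻ x : (E → ℝ≥0) × (E → ℝ≥0), (((∑ e ∈ cset M 0 x.1 x.2, x.2 e : ℝ≥0) : ℝ≥0∞) +
        (∑ j ∈ Finset.Icc 1 K, 2 * (low M j x : ℝ≥0∞) + (wmax M x.1 : ℝ≥0∞) * 2⁻¹)) ∂(μ.prod μ) :=
          lintegral_mono c1
      _ = ∫⁻ x : (E → ℝ≥0) × (E → ℝ≥0),
            ((∑ e ∈ cset M 0 x.1 x.2, x.2 e : ℝ≥0) : ℝ≥0∞) ∂(μ.prod μ) +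
          (∑ j ∈ Finset.Icc 1 K, 2 * ∫⁻ x, (low M j x : ℝ≥0∞) ∂(μ.prod μ) +
            (∫⁻ x : (E → ℝ≥0) × (E → ℝ≥0), (wmax M x.1 : ℝ≥0∞) ∂(μ.prod μ)) * 2⁻¹) := by
          have mw1 : Measurable fun x : (E → ℝ≥0) × (E → ℝ≥0) => (wmax M x.1 : ℝ≥0∞) :=
            ((measurable_wmax M).comp measurable_fst).coe_nnreal_ennreal
          have mR : Measurable fun x : (E → ℝ≥0) × (E → ℝ≥0) =>
              ∑ j ∈ Finset.Icc 1 K, 2 * (low M j x : ℝ≥0∞) + (wmax M x.1 : ℝ≥0∞) * 2⁻¹ :=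
            (Finset.measurable_sum _ (fun j _ => (ml j).const_mul 2)).add mw
          rw [lintegral_add_right _ mR, lintegral_add_right _ mw,
            lintegral_finsetSum _ (fun j _ => (ml j).const_mul 2), lintegral_mul_const _ mw1]
          congr 2
          apply Finset.sum_congr rfl
          intro j _
          rw [lintegral_const_mul _ (ml j)]
      _ ≤ _ := by
          have t := top_ineq M D
          rw [e0] at t
          gcongr
  have s1 : ∑ j ∈ Finset.Icc 1 K, 2 * ∫⁻ x, (low M j x : ℝ≥0∞) ∂(μ.prod μ) ≤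
      4 * ∑ j ∈ Finset.Icc 1 K, ∫⁻ x, (low M j x : ℝ≥0∞) ∂(μ.prod μ) := by
    rw [Finset.mul_sum]
    apply Finset.sum_le_sum
    intro j _
    gcongr
    norm_num
  have s2 : ∫⁻ x, (low M 0 x : ℝ≥0∞) ∂(μ.prod μ) +
      ∑ j ∈ Finset.Icc 1 K, ∫⁻ x, (low M j x : ℝ≥0∞) ∂(μ.prod μ) = S := by
    rw [hS, Fin.sum_univ_eq_sum_range (fun j => ∫⁻ x, (low M j x : ℝ≥0∞) ∂(μ.prod μ)) (K + 1),
      Finset.sum_range_succ', add_comm]
    congr 1
    rw [Finset.range_eq_Ico, Finset.sum_Ico_add' (fun j => ∫⁻ x, (low M j x : ℝ≥0∞) ∂(μ.prod μ)) 0 K 1]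
    rfl
  have f1 : EO ≤ 4 * S + EO * 2⁻¹ := by
    refine d1.trans ?_
    rw [← add_assoc, ← s2, mul_add]
    gcongr
  have f2 : EO = EO * 2⁻¹ + EO * 2⁻¹ := by
    rw [← mul_add, ENNReal.inv_two_add_inv_two, mul_one]
  have f3 : EO * 2⁻¹ ≤ 4 * S := by
    have hne : EO * 2⁻¹ ≠ ⊤ := ENNReal.mul_ne_top hfin (by norm_num)
    have : EO * 2⁻¹ + EO * 2⁻¹ ≤ 4 * S + EO * 2⁻¹ := by rw [← f2]; exact f1
    exact (ENNReal.add_le_add_iff_right hne).mp this
  calc EO = EO * 2⁻¹ + EO * 2⁻¹ := f2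
    _ ≤ 4 * S + 4 * S := add_le_add f3 f3
    _ = 8 * S := by rw [← add_mul]; norm_num

/-- FIN -/
theorem final (M : Matroid E) (r : ℕ)
    (hr : ∀ I : Finset E, M.Indep (I : Set E) → I.card ≤ r) :
    ∃ ρ : Rule E, ρ.Competitive M (1 / (8 * (Nat.clog 2 r + 2))) := by
  refine ⟨grule M (Nat.clog 2 r + 1), grule_feasible M _, ?_⟩
  intro D hD hfin π
  have hK : 2 * r ≤ 2 ^ (Nat.clog 2 r + 1) := by
    rw [pow_succ, mul_comm]
    exact Nat.mul_le_mul_right 2 (Nat.le_pow_clog (by norm_num) r)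
  have h1 := fin_int M (Nat.clog 2 r + 1) r hr hK D hfin
  refine le_trans ?_ (value_ge M (Nat.clog 2 r + 1) D π)
  refine le_trans (mul_le_mul_right h1 _) (le_of_eq ?_)
  rw [← mul_assoc, mul_comm]
  congr 1
  have e1 : ENNReal.ofReal (1 / (8 * ((Nat.clog 2 r : ℝ) + 2))) =
      (8 * ((Nat.clog 2 r : ℝ≥0∞) + 2))⁻¹ := by
    rw [one_div, ENNReal.ofReal_inv_of_pos (by positivity), ENNReal.ofReal_mul (by norm_num),
      ENNReal.ofReal_add (by positivity) (by norm_num), ENNReal.ofReal_natCast]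
    norm_num
  rw [e1, ENNReal.mul_inv (by norm_num) (by norm_num), mul_comm, ← mul_assoc,
    ENNReal.mul_inv_cancel (by norm_num) (by norm_num), one_mul]
  push_cast
  congr 1
  rw [add_assoc]
  norm_num

end Vale.Agent.P331
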