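import Vale.Agent.P331.Greedy

open MeasureTheory
open scoped ENNReal NNReal

namespace Vale.Agent.P331

variable {E : Type} [Fintype E] [DecidableEq E]

/-- G1: the greedy set is independent -/
theorem grun_indep (M : Matroid E) (j : ℕ) (s : E → ℝ≥0) (p : List (E × ℝ≥0)) :
    M.Indep ((grun M j s p : Finset E) : Set E) := by
  induction p with
  | nil => simp [grun]
  | cons a p ih =>
    obtain ⟨e, x⟩ := a
    simp only [grun]
    split_ifs with h
    · exact h.2
    · exact ih

omit [DecidableEq E] in
theorem G1_mem_cset {M : Matroid E} {j : ℕ} {s v : E → ℝ≥0} {e : E} :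
    e ∈ cset M j s v ↔ cand M j s e (v e) := by
  classical
  unfold cset
  rw [Finset.mem_filter]
  exact ⟨fun h => h.2, fun h => ⟨Finset.mem_univ _, h⟩⟩

/-- G1: it consists of candidates -/
theorem grun_sub (M : Matroid E) (j : ℕ) (s v : E → ℝ≥0) (l : List E) :
    grun M j s (l.map (fun f => (f, v f))) ⊆ cset M j s v := by
  induction l with
  | nil => simp [grun]
  | cons a l ih =>
    simp only [List.map_cons, grun]
    split_ifs with h
    · exact Finset.insert_subset (G1_mem_cset.2 h.1) ih
    · exact ih

theorem G1_max (M : Matroid E) (j : ℕ) (s v : E → ℝ≥0) (l : List E) (e : E) (he : e ∈ l)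
    (hc : cand M j s e (v e)) :
    e ∈ grun M j s (l.map (fun f => (f, v f))) ∨
      ¬ M.Indep ((insert e (grun M j s (l.map (fun f => (f, v f)))) : Finset E) : Set E) := by
  induction l with
  | nil => simp at he
  | cons a l ih =>
    simp only [List.map_cons, grun]
    rcases List.mem_cons.1 he with rfl | he'
    · split_ifs with h
      · exact Or.inl (Finset.mem_insert_self _ _)
      · exact Or.inr fun h' => h ⟨hc, h'⟩
    · rcases ih he' with h1 | h1
      · left
        split_ifs with h
        · exact Finset.mem_insert_of_mem h1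
        · exact h1
      · right
        split_ifs with h
        · intro h2
          refine h1 (h2.subset ?_)
          rw [Finset.coe_subset]
          exact Finset.insert_subset_insert _ (Finset.subset_insert _ _)
        · exact h1

/-- G1: it is maximal (use Matroid.Indep.augment) -/
theorem grun_card (M : Matroid E) (j : ℕ) (s v : E → ℝ≥0) (l : List E) (hl : ∀ e, e ∈ l) :
    rk M (cset M j s v) ≤ (grun M j s (l.map (fun f => (f, v f)))).card := by
  classical
  unfold rk
  refine Finset.sup_le fun I hI => ?_
  rw [Finset.mem_filter, Finset.mem_powerset] at hI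
  by_contra hlt
  rw [not_le] at hlt
  obtain ⟨e, he, he2⟩ := (grun_indep M j s (l.map (fun f => (f, v f)))).augment hI.2 (by
    rw [Set.encard_coe_eq_coe_finsetCard, Set.encard_coe_eq_coe_finsetCard]
    exact_mod_cast hlt)
  have hec : e ∈ cset M j s v := hI.1 (by simpa using he.1)
  rcases G1_max M j s v l e (hl e) (G1_mem_cset.1 hec) with h1 | h1
  · exact he.2 (by simpa using h1)
  · refine h1 ?_
    rw [Finset.coe_insert]
    exact he2

/-- G1: value bound at level `j ≥ 1` -/
theorem grun_val (M : Matroid E) (j : ℕ) (hj : 1 ≤ j) (s v : E → ℝ≥0) (l : List E)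
    (hl : ∀ e, e ∈ l) :
    wmax M s / 2 ^ j * rk M (cset M j s v) ≤ ∑ e ∈ grun M j s (l.map (fun f => (f, v f))), v e := by
  have h1 : ∀ e ∈ grun M j s (l.map (fun f => (f, v f))), wmax M s / 2 ^ j ≤ v e := by
    intro e he
    have h2 := G1_mem_cset.1 (grun_sub M j s v l he)
    unfold cand at h2
    rw [if_neg (by omega)] at h2
    rw [div_le_iff₀ (by positivity)]
    exact h2.le
  have h3 := Finset.card_nsmul_le_sum _ _ _ h1
  refine le_trans ?_ h3
  rw [nsmul_eq_mul, mul_comm]
  gcongr
  exact grun_card M j s v l hl

open Classical in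
/-- G1: value bound at level `0` -/
theorem grun_val_zero (M : Matroid E) (s v : E → ℝ≥0) (l : List E) (hl : ∀ e, e ∈ l) :
    ∑ e, (if cset M 0 s v = {e} then v e else 0) ≤
      ∑ e ∈ grun M 0 s (l.map (fun f => (f, v f))), v e := by
  by_cases h : ∃ e0, cset M 0 s v = {e0}
  · obtain ⟨e0, h0⟩ := h
    have h1 : ∀ e, (if cset M 0 s v = {e} then v e else 0) = if e = e0 then v e0 else 0 := by
      intro e
      rw [h0]
      by_cases he : e = e0
      · subst he
        simp
      · rw [if_neg he, if_neg]
        intro h2
        exact he (Finset.singleton_injective h2).symm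
    rw [Finset.sum_congr rfl (fun e _ => h1 e), Finset.sum_ite_eq' Finset.univ e0 (fun _ => v e0),
      if_pos (Finset.mem_univ _)]
    have hsub := grun_sub M 0 s v l
    rw [h0] at hsub
    have hcand : cand M 0 s e0 (v e0) := G1_mem_cset.1 (by rw [h0]; exact Finset.mem_singleton_self _)
    have hind : M.Indep {e0} := by
      unfold cand at hcand
      rw [if_pos rfl] at hcand
      exact hcand.1
    have hmem : e0 ∈ grun M 0 s (l.map (fun f => (f, v f))) := by
      rcases G1_max M 0 s v l e0 (hl e0) hcand with h2 | h2
      · exact h2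
      · exfalso
        refine h2 (hind.subset ?_)
        intro x hx
        rw [Finset.mem_coe, Finset.mem_insert] at hx
        rcases hx with rfl | hx
        · rfl
        · exact Finset.mem_singleton.1 (hsub hx)
    exact Finset.single_le_sum (fun _ _ => bot_le) hmem
  · rw [Finset.sum_eq_zero]
    · exact bot_le
    · intro e _
      rw [if_neg]
      exact fun h2 => h ⟨e, h2⟩

end Vale.Agent.P331
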