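import Vale.Agent.P331.Defs

/-!
# P331: the greedy threshold rule (definitions)
-/

open MeasureTheory
open scoped ENNReal NNReal

namespace Vale.Agent.P331

variable {E : Type} [Fintype E] [DecidableEq E]

/-- index of an element -/
noncomputable def idx (e : E) : ℕ := (Fintype.equivFin E e : ℕ)

theorem idx_inj {e f : E} (h : idx e = idx f) : e = f :=
  (Fintype.equivFin E).injective (Fin.ext h)

/-- values with ties broken by the index -/
noncomputable def key (x : ℝ≥0) (e : E) : ℝ≥0 ×ₗ ℕ := toLex (x, idx e)

theorem key_lt {x y : ℝ≥0} {e f : E} : key x e < key y f ↔ x < y ∨ (x = y ∧ idx e < idx f) :=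
  Prod.Lex.lt_iff

open Classical in
/-- the largest sample of a nonloop -/
noncomputable def wmax (M : Matroid E) (s : E → ℝ≥0) : ℝ≥0 :=
  Finset.univ.sup (fun f => if M.Indep {f} then s f else 0)

/-- candidates of level `j` -/
def cand (M : Matroid E) (j : ℕ) (s : E → ℝ≥0) (e : E) (x : ℝ≥0) : Prop :=
  if j = 0 then M.Indep {e} ∧ ∀ f, M.Indep {f} → key (s f) f < key x e
  else wmax M s < x * 2 ^ j

open Classical in
/-- the set of candidates -/
noncomputable def cset (M : Matroid E) (j : ℕ) (s v : E → ℝ≥0) : Finset E :=
  Finset.univ.filter (fun e => cand M j s e (v e))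

open Classical in
/-- rank -/
noncomputable def rk (M : Matroid E) (X : Finset E) : ℕ :=
  (X.powerset.filter (fun I : Finset E => M.Indep (I : Set E))).sup Finset.card

open Classical in
/-- the greedy set -/
noncomputable def grun (M : Matroid E) (j : ℕ) (s : E → ℝ≥0) : List (E × ℝ≥0) → Finset E
  | [] => ∅
  | (e, x) :: p =>
    if cand M j s e x ∧ M.Indep ((insert e (grun M j s p) : Finset E) : Set E) then
      insert e (grun M j s p)
    else grun M j s p

end Vale.Agent.P331
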