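import Vale.Agent.P331.Greedy

open MeasureTheory
open scoped ENNReal NNReal

namespace Vale.Agent.P331

variable {E : Type} [Fintype E] [DecidableEq E]

open Classical in
/-- MS: measurability of the largest sample -/
theorem measurable_wmax (M : Matroid E) : Measurable (wmax M : (E → ℝ≥0) → ℝ≥0) := by
  have h : ∀ S : Finset E, Measurable
      (fun s : E → ℝ≥0 => S.sup (fun f => if M.Indep {f} then s f else 0)) := by
    intro S
    induction S using Finset.induction_on with
    | empty => simp only [Finset.sup_empty]; exact measurable_const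
    | insert a S ha ih =>
      simp only [Finset.sup_insert]
      refine Measurable.sup ?_ ih
      by_cases hM : M.Indep {a}
      · simp only [hM, if_true]; exact measurable_pi_apply a
      · simp only [hM, if_false]; exact measurable_const
  exact h Finset.univ

/-- MS: comparisons of keys are measurable -/
theorem measurableSet_key {α : Type} [MeasurableSpace α] {a b : α → ℝ≥0} (ha : Measurable a)
    (hb : Measurable b) (e f : E) : MeasurableSet {x | key (a x) e < key (b x) f} := by
  simp only [key_lt]
  by_cases h : idx e < idx f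
  · simp only [h, and_true]
    exact (measurableSet_lt ha hb).union (measurableSet_eq_fun ha hb)
  · simp only [h, and_false, or_false]
    exact measurableSet_lt ha hb

/-- MS: candidates, for a measurable level -/
theorem measurableSet_cand (M : Matroid E) (e : E) : MeasurableSet
    {x : (E → ℝ≥0) × (E → ℝ≥0) × ℕ | cand M x.2.2 x.1 e (x.2.1 e)} := by
  have h1 : ∀ j : ℕ, MeasurableSet
      {x : (E → ℝ≥0) × (E → ℝ≥0) × ℕ | cand M j x.1 e (x.2.1 e)} := by
    intro j
    have hv : Measurable (fun x : (E → ℝ≥0) × (E → ℝ≥0) × ℕ => x.2.1 e) :=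
      (measurable_pi_apply e).comp (measurable_fst.comp measurable_snd)
    by_cases hj : j = 0
    · simp only [cand, hj, if_true]
      by_cases hM : M.Indep {e}
      · simp only [hM, true_and]
        have : {x : (E → ℝ≥0) × (E → ℝ≥0) × ℕ | ∀ f, M.Indep {f} → key (x.1 f) f < key (x.2.1 e) e}
            = ⋂ f : E, {x : (E → ℝ≥0) × (E → ℝ≥0) × ℕ |
                M.Indep {f} → key (x.1 f) f < key (x.2.1 e) e} := by
          ext x; simp
        rw [this]
        refine MeasurableSet.iInter fun f => ?_
        by_cases hf : M.Indep {f}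
        · simp only [hf, true_imp_iff]
          exact measurableSet_key ((measurable_pi_apply f).comp measurable_fst) hv f e
        · simp only [hf, false_imp_iff]
          exact MeasurableSet.univ
      · simp only [hM, false_and]
        exact MeasurableSet.empty
    · simp only [cand, hj, if_false]
      exact measurableSet_lt ((measurable_wmax M).comp measurable_fst) (hv.mul_const _)
  have h2 : {x : (E → ℝ≥0) × (E → ℝ≥0) × ℕ | cand M x.2.2 x.1 e (x.2.1 e)}
      = ⋃ j : ℕ, ({x : (E → ℝ≥0) × (E → ℝ≥0) × ℕ | x.2.2 = j} ∩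
          {x : (E → ℝ≥0) × (E → ℝ≥0) × ℕ | cand M j x.1 e (x.2.1 e)}) := by
    ext x
    simp only [Set.mem_iUnion, Set.mem_inter_iff]
    constructor
    · intro h
      exact ⟨x.2.2, rfl, h⟩
    · rintro ⟨j, hj, h⟩
      have hj' : x.2.2 = j := hj
      subst hj'
      exact h
  rw [h2]
  refine MeasurableSet.iUnion fun j => MeasurableSet.inter ?_ (h1 j)
  exact (measurable_snd.comp measurable_snd) (measurableSet_singleton j)

/-- MS: the candidate set is a measurable function -/
theorem measurableSet_cset (M : Matroid E) (j : ℕ) (X : Finset E) : MeasurableSet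
    {x : (E → ℝ≥0) × (E → ℝ≥0) | cset M j x.1 x.2 = X} := by
  classical
  have hc : ∀ e : E, MeasurableSet {x : (E → ℝ≥0) × (E → ℝ≥0) | cand M j x.1 e (x.2 e)} := by
    intro e
    have hm : Measurable (fun x : (E → ℝ≥0) × (E → ℝ≥0) => (x.1, x.2, j)) :=
      measurable_fst.prodMk (measurable_snd.prodMk measurable_const)
    exact hm (measurableSet_cand M e)
  have h : {x : (E → ℝ≥0) × (E → ℝ≥0) | cset M j x.1 x.2 = X}
      = ⋂ e : E, (if e ∈ X then {x : (E → ℝ≥0) × (E → ℝ≥0) | cand M j x.1 e (x.2 e)}
        else {x : (E → ℝ≥0) × (E → ℝ≥0) | cand M j x.1 e (x.2 e)}ᶜ) := by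
    ext x
    simp only [Set.mem_ofPred_eq, Set.mem_iInter]
    constructor
    · intro hx e
      by_cases he : e ∈ X
      · rw [if_pos he]
        rw [← hx] at he
        simpa [cset] using he
      · rw [if_neg he]
        rw [← hx] at he
        simpa [cset] using he
    · intro hx
      ext e
      have := hx e
      by_cases he : e ∈ X
      · rw [if_pos he] at this
        simp only [cset, Finset.mem_filter, Finset.mem_univ, true_and, he, iff_true]
        exact this
      · rw [if_neg he] at this
        simp only [cset, Finset.mem_filter, Finset.mem_univ, true_and, he, iff_false]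
        exact this
  rw [h]
  refine MeasurableSet.iInter fun e => ?_
  by_cases he : e ∈ X
  · rw [if_pos he]; exact hc e
  · rw [if_neg he]; exact (hc e).compl

/-- MS: the greedy set is a measurable function (induction on `l`) -/
theorem measurableSet_grun (M : Matroid E) (l : List E) (X : Finset E) : MeasurableSet
    {x : (E → ℝ≥0) × (E → ℝ≥0) × ℕ | grun M x.2.2 x.1 (l.map (fun f => (f, x.2.1 f))) = X} := by
  classical
  induction l generalizing X with
  | nil =>
    simp only [List.map_nil, grun]
    exact MeasurableSet.const _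
  | cons e l ih =>
    have hc := measurableSet_cand M e
    have h : {x : (E → ℝ≥0) × (E → ℝ≥0) × ℕ |
        grun M x.2.2 x.1 ((e :: l).map (fun f => (f, x.2.1 f))) = X}
        = ⋃ Y : Finset E,
          ({x : (E → ℝ≥0) × (E → ℝ≥0) × ℕ |
              grun M x.2.2 x.1 (l.map (fun f => (f, x.2.1 f))) = Y} ∩
            (({x : (E → ℝ≥0) × (E → ℝ≥0) × ℕ | cand M x.2.2 x.1 e (x.2.1 e)} ∩
                {_x | M.Indep ((insert e Y : Finset E) : Set E)}) ∩ {_x | insert e Y = X} ∪
              ({x : (E → ℝ≥0) × (E → ℝ≥0) × ℕ | cand M x.2.2 x.1 e (x.2.1 e)} ∩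
                {_x | M.Indep ((insert e Y : Finset E) : Set E)})ᶜ ∩ {_x | Y = X})) := by
      ext x
      simp only [List.map_cons, grun, Set.mem_ofPred_eq, Set.mem_iUnion, Set.mem_inter_iff,
        Set.mem_union, Set.mem_compl_iff, exists_eq_left']
      by_cases hP : cand M x.2.2 x.1 e (x.2.1 e) ∧
          M.Indep ((insert e (grun M x.2.2 x.1 (l.map (fun f => (f, x.2.1 f)))) : Finset E) : Set E)
      · rw [if_pos hP]
        tauto
      · rw [if_neg hP]
        tauto
    rw [h]
    refine MeasurableSet.iUnion fun Y => (ih Y).inter ?_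
    exact (((hc.inter (MeasurableSet.const _)).inter (MeasurableSet.const _))).union
      ((hc.inter (MeasurableSet.const _)).compl.inter (MeasurableSet.const _))

open Classical in
/-- MS: the decision of the greedy rule is measurable -/
theorem measurable_accept (M : Matroid E) (K : ℕ) (l : List E) (e : E) : Measurable
    (fun x : (E → ℝ≥0) × (E → ℝ≥0) × Fin (K + 1) =>
      decide (cand M (x.2.2 : ℕ) x.1 e (x.2.1 e) ∧ M.Indep ((insert e (grun M (x.2.2 : ℕ) x.1
        (l.map (fun f => (f, x.2.1 f)))) : Finset E) : Set E))) := by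
  have hm : Measurable (fun x : (E → ℝ≥0) × (E → ℝ≥0) × Fin (K + 1) =>
      (x.1, x.2.1, (x.2.2 : ℕ))) := by
    have h0 : Measurable (fun i : Fin (K + 1) => (i : ℕ)) := Measurable.of_discrete
    exact measurable_fst.prodMk ((measurable_fst.comp measurable_snd).prodMk
      (h0.comp (measurable_snd.comp measurable_snd)))
  apply measurable_to_bool
  have h : MeasurableSet {x : (E → ℝ≥0) × (E → ℝ≥0) × ℕ |
      cand M x.2.2 x.1 e (x.2.1 e) ∧ M.Indep ((insert e (grun M x.2.2 x.1
        (l.map (fun f => (f, x.2.1 f)))) : Finset E) : Set E)} := by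
    have h1 : {x : (E → ℝ≥0) × (E → ℝ≥0) × ℕ |
      cand M x.2.2 x.1 e (x.2.1 e) ∧ M.Indep ((insert e (grun M x.2.2 x.1
        (l.map (fun f => (f, x.2.1 f)))) : Finset E) : Set E)}
        = {x : (E → ℝ≥0) × (E → ℝ≥0) × ℕ | cand M x.2.2 x.1 e (x.2.1 e)} ∩
          ⋃ Y : Finset E, ({x : (E → ℝ≥0) × (E → ℝ≥0) × ℕ |
              grun M x.2.2 x.1 (l.map (fun f => (f, x.2.1 f))) = Y} ∩
            {_x | M.Indep ((insert e Y : Finset E) : Set E)}) := by
      ext x
      simp only [Set.mem_ofPred_eq, Set.mem_iUnion, Set.mem_inter_iff, exists_eq_left']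
    rw [h1]
    exact (measurableSet_cand M e).inter (MeasurableSet.iUnion fun Y =>
      (measurableSet_grun M l Y).inter (MeasurableSet.const _))
  have h2 := hm h
  convert h2 using 1
  ext x
  simp

private theorem MSC_comp {α β : Type} [MeasurableSpace α] [MeasurableSpace β] {c : α → Finset E}
    (h : ∀ X : Finset E, MeasurableSet {x | c x = X}) (g : Finset E → β) :
    Measurable (fun x => g (c x)) := by
  intro S _
  have e : (fun x => g (c x)) ⁻¹' S = ⋃ X : Finset E, ({x | c x = X} ∩ {_x : α | g X ∈ S}) := by
    ext x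
    simp only [Set.mem_preimage, Set.mem_iUnion, Set.mem_inter_iff]
    constructor
    · intro hx
      exact ⟨c x, rfl, hx⟩
    · rintro ⟨X, hX, hx⟩
      have hX' : c x = X := hX
      rw [hX']
      exact hx
  rw [e]
  exact MeasurableSet.iUnion fun X => (h X).inter (MeasurableSet.const _)

/-- MS: the lower bound functions are measurable -/
theorem measurable_low (M : Matroid E) (j : ℕ) : Measurable
    (fun x : (E → ℝ≥0) × (E → ℝ≥0) => wmax M x.1 / 2 ^ j * (rk M (cset M j x.1 x.2) : ℝ≥0)) := by
  refine Measurable.mul (((measurable_wmax M).comp measurable_fst).div_const _) ?_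
  exact MSC_comp (c := fun x : (E → ℝ≥0) × (E → ℝ≥0) => cset M j x.1 x.2)
    (fun X => measurableSet_cset M j X) (fun X => (rk M X : ℝ≥0))

open Classical in
/-- MS -/
theorem measurable_single (M : Matroid E) (e : E) : Measurable
    (fun x : (E → ℝ≥0) × (E → ℝ≥0) => if cset M 0 x.1 x.2 = {e} then x.2 e else 0) :=
  Measurable.ite (measurableSet_cset M 0 {e}) ((measurable_pi_apply e).comp measurable_snd)
    measurable_const

end Vale.Agent.P331
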